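import Mathlib

/-!
# Numerics for the closure-type packing (helper63; conditional leaf (M4) for helper77, row 55)

`closure_numeric`: the per-pattern constant of helper68's closure theorem (`n p ≤ 1`) is at most
`exp 45` per edge.  Pure real arithmetic, Mathlib only; nothing here proves a spread bound.
-/

set_option autoImplicit false

namespace Crest.Agent.Helper63.S0076

/-- `exp (25/16) < 5` (from `exp 1 < 2.7182818286` and `exp (25/16) ^ 16 = exp 1 ^ 25`). -/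
theorem exp_25_16_lt : Real.exp (25/16 : ℝ) < 5 := by
  have h1 : Real.exp (25/16 : ℝ) ^ 16 = Real.exp 1 ^ 25 := by
    rw [← Real.exp_nat_mul, ← Real.exp_nat_mul]
    norm_num
  have h2 : Real.exp 1 ^ 25 < (5:ℝ) ^ 16 := by
    have h3 : Real.exp 1 < 2.7182818286 := Real.exp_one_lt_d9
    calc Real.exp 1 ^ 25 < (2.7182818286 : ℝ) ^ 25 :=
          pow_lt_pow_left₀ h3 (Real.exp_pos 1).le (by norm_num)
      _ < (5:ℝ)^16 := by norm_num
  have h4 : Real.exp (25/16 : ℝ) ^ 16 < (5:ℝ)^16 := by rw [h1]; exact h2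
  exact lt_of_pow_lt_pow_left₀ 16 (by norm_num) h4

/-- `exp x - 1 ≤ x * exp x`. -/
theorem exp_sub_one_le_mul_exp (x : ℝ) : Real.exp x - 1 ≤ x * Real.exp x := by
  have h := Real.one_sub_le_exp_neg x
  have hpos := Real.exp_pos x
  have hmul : Real.exp (-x) * Real.exp x = 1 := by rw [← Real.exp_add]; simp
  have := mul_le_mul_of_nonneg_right h hpos.le
  rw [hmul] at this
  linarith

theorem closure_numeric (n v e : ℕ) (p : ℝ) (hp : 0 < p) (hnp : (n:ℝ) * p ≤ 1) (hvn : v ≤ n)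
    (hv : v ≤ 2 * e) (he : 1 ≤ e) :
    2 * Real.exp 1 * (4:ℝ)^(v - 1) * (v:ℝ) * ((25/16 : ℝ) * p)^e * (1 + (25/16:ℝ) * p)^(v^2) *
      Real.exp (2 * (n:ℝ) * ((1 + (25/16:ℝ) * p)^v - 1)) ≤ (Real.exp 45 * p)^e := by
  set q : ℝ := (25/16:ℝ) * p with hq
  have hq0 : 0 < q := by positivity
  have hvR : (0:ℝ) ≤ v := Nat.cast_nonneg v
  have hvp : (v:ℝ) * p ≤ 1 :=
    (mul_le_mul_of_nonneg_right (Nat.cast_le.2 hvn) hp.le).trans hnp
  have hqv : q * v ≤ 25/16 := by
    have : q * v = (25/16) * ((v:ℝ) * p) := by rw [hq]; ring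
    rw [this]; nlinarith
  have h2 : (2:ℝ) ≤ Real.exp 1 := by
    have := Real.add_one_le_exp (1:ℝ); linarith
  have h1q : 1 + q ≤ Real.exp q := by have := Real.add_one_le_exp q; linarith
  -- (1+q)^(v^2) ≤ exp (25/16 v)
  have hA : (1 + q)^(v^2) ≤ Real.exp ((25/16) * v) := by
    calc (1 + q)^(v^2) ≤ (Real.exp q)^(v^2) := pow_le_pow_left₀ (by positivity) h1q _
      _ = Real.exp (((v^2 : ℕ) : ℝ) * q) := (Real.exp_nat_mul q (v^2)).symm
      _ ≤ Real.exp ((25/16) * v) := by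
          apply Real.exp_le_exp.2
          push_cast
          nlinarith [mul_le_mul_of_nonneg_left hqv hvR]
  -- (1+q)^v - 1 ≤ 5 q v
  have hB0 : (1 + q)^v - 1 ≤ q * v * 5 := by
    have h3 : (1 + q)^v ≤ Real.exp (q * v) := by
      calc (1 + q)^v ≤ (Real.exp q)^v := pow_le_pow_left₀ (by positivity) h1q _
        _ = Real.exp ((v:ℝ) * q) := (Real.exp_nat_mul q v).symm
        _ = Real.exp (q * v) := by rw [mul_comm]
    have h4 := exp_sub_one_le_mul_exp (q * v)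
    have h5 : Real.exp (q * v) ≤ 5 := (Real.exp_le_exp.2 hqv).trans exp_25_16_lt.le
    have h6 : 0 ≤ q * v := by positivity
    nlinarith
  have hB : 2 * (n:ℝ) * ((1 + q)^v - 1) ≤ (125/8) * v := by
    have hn0 : (0:ℝ) ≤ n := Nat.cast_nonneg n
    calc 2 * (n:ℝ) * ((1 + q)^v - 1) ≤ 2 * (n:ℝ) * (q * v * 5) := by gcongr
      _ = (125/8) * ((n:ℝ) * p) * v := by rw [hq]; ring
      _ ≤ (125/8) * 1 * v := by gcongr
      _ = (125/8) * v := by ring
  have hexp2 : Real.exp 2 = Real.exp 1 * Real.exp 1 := by rw [← Real.exp_add]; norm_num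
  have hC : 2 * Real.exp 1 ≤ Real.exp 2 := by
    rw [hexp2]; nlinarith [Real.exp_pos 1]
  have h4 : (4:ℝ) ≤ Real.exp 2 := by
    rw [hexp2]; nlinarith
  have hD : (4:ℝ)^(v-1) ≤ Real.exp (2 * v) := by
    calc (4:ℝ)^(v-1) ≤ (4:ℝ)^v := pow_le_pow_right₀ (by norm_num) (Nat.sub_le v 1)
      _ ≤ (Real.exp 2)^v := pow_le_pow_left₀ (by norm_num) h4 _
      _ = Real.exp ((v:ℝ) * 2) := (Real.exp_nat_mul 2 v).symm
      _ = Real.exp (2 * v) := by rw [mul_comm]
  have hE : (v:ℝ) ≤ Real.exp v := by have := Real.add_one_le_exp (v:ℝ); linarith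
  have hF : q^e ≤ Real.exp e * p^e := by
    rw [hq, mul_pow]
    have : (25/16:ℝ)^e ≤ Real.exp e := by
      calc (25/16:ℝ)^e ≤ (Real.exp 1)^e := pow_le_pow_left₀ (by norm_num) (by linarith) _
        _ = Real.exp ((e:ℝ) * 1) := (Real.exp_nat_mul 1 e).symm
        _ = Real.exp e := by rw [mul_one]
    gcongr
  have hG : Real.exp (2 * (n:ℝ) * ((1 + q)^v - 1)) ≤ Real.exp ((125/8) * v) :=
    Real.exp_le_exp.2 hB
  have hv' : (v:ℝ) ≤ 2 * e := by exact_mod_cast hv
  have he' : (1:ℝ) ≤ e := by exact_mod_cast he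
  calc 2 * Real.exp 1 * (4:ℝ)^(v - 1) * (v:ℝ) * q^e * (1 + q)^(v^2) *
        Real.exp (2 * (n:ℝ) * ((1 + q)^v - 1))
      ≤ Real.exp 2 * Real.exp (2 * v) * Real.exp v * (Real.exp e * p^e) *
          Real.exp ((25/16) * v) * Real.exp ((125/8) * v) := by
        gcongr
    _ = Real.exp (2 + 2 * v + v + e + (25/16) * v + (125/8) * v) * p^e := by
        rw [Real.exp_add, Real.exp_add, Real.exp_add, Real.exp_add, Real.exp_add]; ring
    _ ≤ Real.exp (45 * e) * p^e := by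
        gcongr
        linarith
    _ = (Real.exp 45 * p)^e := by
        rw [mul_pow, ← Real.exp_nat_mul]; ring_nf

end Crest.Agent.Helper63.S0076
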